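import Vale.Agent.P207.H738.Rank
import Vale.Agent.P207.H97.Span

/-!
# P207, quarter pinching, route 2: the modulus of a period map on tensor modules

`Ad A A' T` (helper97) : `T = μ` on the vectors which grow exactly at the rate `μ` under `A`.
`Md R Ad act H` : `W` is a module over the Lie algebra `G`, with the period map `R` on `W` and `Ad` on
`G`, and `act H` is the logarithm of the modulus of `R`. Closed under `Hom`, products, duals.
-/

set_option linter.all false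

open Set Filter Topology Metric

namespace Vale.Agent.P207.H738

open Vale.Agent.P207.H97

section Log

variable {V W : Type} [NormedAddCommGroup V] [NormedSpace ℝ V] [NormedAddCommGroup W]
  [NormedSpace ℝ W]

theorem slow_nonneg {T : V →L[ℝ] V} {c : ℝ} {v : V} {C : ℝ}
    (h : ∀ n : ℕ, ‖(T ^ n) v‖ ≤ C * Real.exp (c * n)) : 0 ≤ C := by
  have := h 0
  simp only [pow_zero, Nat.cast_zero, mul_zero, Real.exp_zero, mul_one] at this
  exact (norm_nonneg _).trans this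

theorem gs_map {A A' : V →L[ℝ] V} (h : A' ∘L A = ContinuousLinearMap.id ℝ V) {μ : ℝ} {v : V}
    (hv : v ∈ Gs A A' μ) : A v ∈ Gs A A' μ := by
  rw [mem_gs] at hv ⊢
  exact fun ε hε => ⟨slow_map (hv ε hε).1, slow_map' h (hv ε hε).2⟩

/-- powers of an inverse -/
theorem pow_inv {A A' : V →L[ℝ] V} (h : A' ∘L A = ContinuousLinearMap.id ℝ V) (n : ℕ) (v : V) :
    (A' ^ n) ((A ^ n) v) = v := by
  induction n with
  | zero => simp
  | succ n ih =>
    rw [pow_succ, pow_succ']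
    show (A' ^ n) (A' (A ((A ^ n) v))) = v
    have : A' (A ((A ^ n) v)) = (A ^ n) v := by
      have := congrArg (fun f : V →L[ℝ] V => f ((A ^ n) v)) h
      simpa using this
    rw [this, ih]

/-- the eigenspaces of the logarithm are the growth spaces -/
theorem mem_gs_of_log [FiniteDimensional ℝ V] {A A' T : V →L[ℝ] V}
    (h : A' ∘L A = ContinuousLinearMap.id ℝ V) (h' : A ∘L A' = ContinuousLinearMap.id ℝ V)
    (hT : Ad A A' T) {μ : ℝ} {v : V} (hv : T v = μ • v) : v ∈ Gs A A' μ := by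
  classical
  have htop := iSup_gs h h'
  have hv' : v ∈ ⨆ ν, Gs A A' ν := htop ▸ Submodule.mem_top
  rw [Submodule.mem_iSup_iff_exists_dfinsupp'] at hv'
  obtain ⟨f, hf⟩ := hv'
  have hind := gs_indep h
  have h1 : (f.sum fun i xi => (xi : V)) = v := hf
  -- `(T - μ) v = 0`
  have h2 : (f.sum fun i xi => (i - μ) • (xi : V)) = 0 := by
    have h3 : T v - μ • v = 0 := sub_eq_zero.2 hv
    rw [← h1, DFinsupp.sum, map_sum, Finset.smul_sum, ← Finset.sum_sub_distrib] at h3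
    rw [DFinsupp.sum, ← h3]
    refine Finset.sum_congr rfl fun i _ => ?_
    rw [hT i _ (f i).2, sub_smul]
  have h4 : ∀ i, i ≠ μ → f i = 0 := by
    intro i hi
    have h5 := (iSupIndep_iff_forall_dfinsupp _).1 hind
    by_contra hne
    have h6 : (i - μ) • (f i : V) ∈ Gs A A' i := Submodule.smul_mem _ _ (f i).2
    let g : Π₀ j, Gs A A' j := f.mapRange (fun j x => (j - μ) • x) (fun j => smul_zero _)
    have h7 : (g.sum fun j xj => (xj : V)) = 0 := by
      rw [← h2]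
      rw [DFinsupp.sum_mapRange_index (fun j => rfl)]
      rfl
    have h8 : Function.Injective (DFinsupp.lsum ℕ (M := fun j => Gs A A' j) fun j => (Gs A A' j).subtype) :=
      iSupIndep.dfinsupp_lsum_injective hind
    have h9 : g = 0 := by
      apply h8
      rw [map_zero, DFinsupp.lsum_apply_apply, DFinsupp.sumAddHom_apply]
      exact h7
    have h10 : (i - μ) • f i = 0 := by
      have := DFinsupp.ext_iff.1 h9 i
      simpa [g] using this
    rcases smul_eq_zero.1 h10 with h11 | h11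
    · exact hi (sub_eq_zero.1 h11)
    · exact hne h11
  have h5 : (f.sum fun i xi => (xi : V)) = f μ := by
    rw [DFinsupp.sum]
    rw [Finset.sum_eq_single μ]
    · intro i _ hi
      rw [h4 i hi]
      rfl
    · intro hμ
      rw [DFinsupp.notMem_support_iff.1 hμ]
      rfl
  rw [← h1, h5]
  exact (f μ).2

/-- an invariant subspace is invariant under the logarithm -/
theorem log_mem [FiniteDimensional ℝ V] {A A' T : V →L[ℝ] V}
    (h : A' ∘L A = ContinuousLinearMap.id ℝ V) (h' : A ∘L A' = ContinuousLinearMap.id ℝ V)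
    (hT : Ad A A' T) (S : Submodule ℝ V)
    (hS : ∀ s ∈ S, A s ∈ S) (hS' : ∀ s ∈ S, A' s ∈ S) : ∀ s ∈ S, T s ∈ S := by
  let B : S →L[ℝ] S := (A ∘L S.subtypeL).codRestrict S (fun s => hS s s.2)
  let B' : S →L[ℝ] S := (A' ∘L S.subtypeL).codRestrict S (fun s => hS' s s.2)
  have hB : ∀ s : S, ((B s : S) : V) = A s := fun s => rfl
  have hB' : ∀ s : S, ((B' s : S) : V) = A' s := fun s => rfl
  have hBp : ∀ (n : ℕ) (s : S), (((B ^ n) s : S) : V) = (A ^ n) s := by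
    intro n
    induction n with
    | zero => intro s; simp
    | succ n ih =>
      intro s
      rw [pow_succ', pow_succ']
      show ((B ((B ^ n) s) : S) : V) = A ((A ^ n) s)
      rw [hB, ih]
  have hBp' : ∀ (n : ℕ) (s : S), (((B' ^ n) s : S) : V) = (A' ^ n) s := by
    intro n
    induction n with
    | zero => intro s; simp
    | succ n ih =>
      intro s
      rw [pow_succ', pow_succ']
      show ((B' ((B' ^ n) s) : S) : V) = A' ((A' ^ n) s)
      rw [hB', ih]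
  have hinv : B' ∘L B = ContinuousLinearMap.id ℝ S := by
    ext s
    show ((B' (B s) : S) : V) = s
    rw [hB', hB]
    have := congrArg (fun f : V →L[ℝ] V => f (s : V)) h
    simpa using this
  have hinv' : B ∘L B' = ContinuousLinearMap.id ℝ S := by
    ext s
    show ((B (B' s) : S) : V) = s
    rw [hB, hB']
    have := congrArg (fun f : V →L[ℝ] V => f (s : V)) h'
    simpa using this
  have htop := iSup_gs hinv hinv'
  intro s hs
  have h1 : (⟨s, hs⟩ : S) ∈ ⨆ μ, Gs B B' μ := htop ▸ Submodule.mem_top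
  have h2 : ∀ x : S, x ∈ ⨆ μ, Gs B B' μ → T (x : V) ∈ S := by
    intro x hx
    refine Submodule.iSup_induction (motive := fun x : S => T (x : V) ∈ S) _ hx ?_ ?_ ?_
    · intro μ y hy
      have h3 : (y : V) ∈ Gs A A' μ := by
        rw [mem_gs] at hy ⊢
        intro ε hε
        obtain ⟨⟨C, hC⟩, ⟨C', hC'⟩⟩ := hy ε hε
        refine ⟨⟨C, fun n => ?_⟩, ⟨C', fun n => ?_⟩⟩
        · rw [← hBp]
          exact hC n
        · rw [← hBp']
          exact hC' n
      rw [hT μ _ h3]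
      exact S.smul_mem μ y.2
    · simp
    · intro a b ha hb
      rw [Submodule.coe_add, map_add]
      exact S.add_mem ha hb
  exact h2 _ h1

/-- a fixed vector is killed by the logarithm -/
theorem log_fix {A A' T : V →L[ℝ] V} (hT : Ad A A' T) {v : V} (hv : A v = v) (hv' : A' v = v) :
    T v = 0 := by
  have h1 : ∀ n : ℕ, (A ^ n) v = v := by
    intro n
    induction n with
    | zero => simp
    | succ n ih =>
      rw [pow_succ']
      show A ((A ^ n) v) = v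
      rw [ih, hv]
  have h2 : ∀ n : ℕ, (A' ^ n) v = v := by
    intro n
    induction n with
    | zero => simp
    | succ n ih =>
      rw [pow_succ']
      show A' ((A' ^ n) v) = v
      rw [ih, hv']
  have h3 : v ∈ Gs A A' 0 := by
    rw [mem_gs]
    intro ε hε
    refine ⟨⟨‖v‖, fun n => ?_⟩, ⟨‖v‖, fun n => ?_⟩⟩
    · rw [h1]
      refine le_mul_of_one_le_right (norm_nonneg _) (Real.one_le_exp ?_)
      positivity
    · rw [h2]
      refine le_mul_of_one_le_right (norm_nonneg _) (Real.one_le_exp ?_)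
      rw [neg_zero]
      positivity
  rw [hT 0 v h3, zero_smul]

/-- the logarithm on `Hom` -/
theorem log_hom [FiniteDimensional ℝ V] [FiniteDimensional ℝ W] {A A' T : V →L[ℝ] V}
    {B B' U : W →L[ℝ] W} (h : A' ∘L A = ContinuousLinearMap.id ℝ V)
    (h' : A ∘L A' = ContinuousLinearMap.id ℝ V)
    (hT : Ad A A' T) (hU : Ad B B' U) {R R' : (V →L[ℝ] W) →L[ℝ] (V →L[ℝ] W)}
    (hR : ∀ X, R X = B ∘L X ∘L A') (hR' : ∀ X, R' X = B' ∘L X ∘L A)
    {Q : (V →L[ℝ] W) →L[ℝ] (V →L[ℝ] W)} (hQ : ∀ X, Q X = U ∘L X - X ∘L T) : Ad R R' Q := by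
  have hp : ∀ (n : ℕ) X, (R ^ n) X = (B ^ n) ∘L X ∘L (A' ^ n) := by
    intro n
    induction n with
    | zero => intro X; ext v; simp
    | succ n ih =>
      intro X
      rw [pow_succ]
      show (R ^ n) (R X) = _
      rw [ih, hR, pow_succ B, pow_succ' A']
      rfl
  have hp' : ∀ (n : ℕ) X, (R' ^ n) X = (B' ^ n) ∘L X ∘L (A ^ n) := by
    intro n
    induction n with
    | zero => intro X; ext v; simp
    | succ n ih =>
      intro X
      rw [pow_succ]
      show (R' ^ n) (R' X) = _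
      rw [ih, hR', pow_succ B', pow_succ' A]
      rfl
  intro ν X hX
  have hgs : ∀ μ, ∀ v ∈ Gs A A' μ, X v ∈ Gs B B' (ν + μ) := by
    intro μ v hv
    rw [mem_gs] at hv hX ⊢
    intro ε hε
    obtain ⟨⟨C1, hC1⟩, ⟨C1', hC1'⟩⟩ := hv (ε / 2) (by positivity)
    obtain ⟨⟨C2, hC2⟩, ⟨C2', hC2'⟩⟩ := hX (ε / 2) (by positivity)
    have e1 := slow_nonneg hC1
    have e1' := slow_nonneg hC1'
    have e2 := slow_nonneg hC2
    have e2' := slow_nonneg hC2'
    refine ⟨⟨C2 * C1, fun n => ?_⟩, ⟨C2' * C1', fun n => ?_⟩⟩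
    · have h1 : (B ^ n) (X v) = ((R ^ n) X) ((A ^ n) v) := by
        rw [hp]
        show _ = (B ^ n) (X ((A' ^ n) ((A ^ n) v)))
        rw [pow_inv h]
      rw [h1]
      calc ‖((R ^ n) X) ((A ^ n) v)‖ ≤ ‖(R ^ n) X‖ * ‖(A ^ n) v‖ := ContinuousLinearMap.le_opNorm _ _
        _ ≤ (C2 * Real.exp ((ν + ε / 2) * n)) * (C1 * Real.exp ((μ + ε / 2) * n)) := by
          have := hC2 n
          have := hC1 n
          gcongr
        _ = C2 * C1 * Real.exp ((ν + μ + ε) * n) := by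
          rw [show (ν + μ + ε) * (n : ℝ) = (ν + ε / 2) * n + (μ + ε / 2) * n by ring, Real.exp_add]
          ring
    · have h1 : (B' ^ n) (X v) = ((R' ^ n) X) ((A' ^ n) v) := by
        rw [hp']
        show _ = (B' ^ n) (X ((A ^ n) ((A' ^ n) v)))
        rw [pow_inv h']
      rw [h1]
      calc ‖((R' ^ n) X) ((A' ^ n) v)‖ ≤ ‖(R' ^ n) X‖ * ‖(A' ^ n) v‖ :=
            ContinuousLinearMap.le_opNorm _ _
        _ ≤ (C2' * Real.exp ((-ν + ε / 2) * n)) * (C1' * Real.exp ((-μ + ε / 2) * n)) := by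
          have := hC2' n
          have := hC1' n
          gcongr
        _ = C2' * C1' * Real.exp ((-(ν + μ) + ε) * n) := by
          rw [show (-(ν + μ) + ε) * (n : ℝ) = (-ν + ε / 2) * n + (-μ + ε / 2) * n by ring,
            Real.exp_add]
          ring
  have h1 : ∀ v ∈ ⨆ μ, Gs A A' μ, (Q X) v = ν • X v := by
    intro v hv
    refine Submodule.iSup_induction (motive := fun v => (Q X) v = ν • X v) _ hv ?_ ?_ ?_
    · intro μ y hy
      rw [hQ]
      show U (X y) - X (T y) = ν • X y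
      rw [hT μ y hy, hU _ _ (hgs μ y hy), map_smul, add_smul]
      abel
    · simp
    · intro a b ha hb
      rw [map_add, ha, hb, map_add, smul_add]
  ext v
  exact h1 v (iSup_gs h h' ▸ Submodule.mem_top)

/-- the logarithm on a product -/
theorem log_prod {A A' T : V →L[ℝ] V} {B B' U : W →L[ℝ] W}
    (hT : Ad A A' T) (hU : Ad B B' U) :
    Ad (A.prodMap B) (A'.prodMap B') (T.prodMap U) := by
  have hp : ∀ (A : V →L[ℝ] V) (B : W →L[ℝ] W) (n : ℕ) (p : V × W),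
      ((A.prodMap B) ^ n) p = ((A ^ n) p.1, (B ^ n) p.2) := by
    intro A B n
    induction n with
    | zero => intro p; simp
    | succ n ih =>
      intro p
      rw [pow_succ, pow_succ, pow_succ]
      show ((A.prodMap B) ^ n) ((A.prodMap B) p) = ((A ^ n) (A p.1), (B ^ n) (B p.2))
      rw [ih]
      rfl
  intro μ p hp'
  rw [mem_gs] at hp'
  have h1 : p.1 ∈ Gs A A' μ := by
    rw [mem_gs]
    intro ε hε
    obtain ⟨⟨C, hC⟩, ⟨C', hC'⟩⟩ := hp' ε hε
    refine ⟨⟨C, fun n => ?_⟩, ⟨C', fun n => ?_⟩⟩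
    · refine le_trans ?_ (hC n)
      rw [hp]
      exact norm_fst_le ((A ^ n) p.1, (B ^ n) p.2)
    · refine le_trans ?_ (hC' n)
      rw [hp]
      exact norm_fst_le ((A' ^ n) p.1, (B' ^ n) p.2)
  have h2 : p.2 ∈ Gs B B' μ := by
    rw [mem_gs]
    intro ε hε
    obtain ⟨⟨C, hC⟩, ⟨C', hC'⟩⟩ := hp' ε hε
    refine ⟨⟨C, fun n => ?_⟩, ⟨C', fun n => ?_⟩⟩
    · refine le_trans ?_ (hC n)
      rw [hp]
      exact norm_snd_le ((A ^ n) p.1, (B ^ n) p.2)
    · refine le_trans ?_ (hC' n)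
      rw [hp]
      exact norm_snd_le ((A' ^ n) p.1, (B' ^ n) p.2)
  show (T p.1, U p.2) = μ • p
  rw [hT _ _ h1, hU _ _ h2]
  rfl

/-- the logarithm is surjective onto the growth spaces: an invariant subspace of the logarithm is
the sum of its intersections with the growth spaces -/
theorem sub_le_of_gs [FiniteDimensional ℝ V] {A A' T : V →L[ℝ] V}
    (h : A' ∘L A = ContinuousLinearMap.id ℝ V) (h' : A ∘L A' = ContinuousLinearMap.id ℝ V)
    (hT : Ad A A' T) (S' S : Submodule ℝ V) (hS' : ∀ s ∈ S', T s ∈ S')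
    (hle : ∀ μ, ∀ v ∈ S', v ∈ Gs A A' μ → v ∈ S) : S' ≤ S := by
  let f : Module.End ℝ V := (T : V →ₗ[ℝ] V)
  have hf : ∀ v, f v = T v := fun v => rfl
  have h1 : ⨆ μ, f.genEigenspace μ (1 : ℕ∞) = ⊤ := by
    rw [eq_top_iff, ← iSup_gs h h']
    refine iSup_mono fun μ => ?_
    intro v hv
    have h2 : v ∈ f.eigenspace μ := by
      rw [Module.End.mem_eigenspace_iff]
      exact hT μ v hv
    exact h2
  have h2 := Submodule.eq_iSup_inf_genEigenspace (p := S') (f := f) 1 hS' h1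
  rw [h2]
  refine iSup_le fun μ => ?_
  rintro v ⟨hv1, hv2⟩
  have h3 : f v = μ • v := by
    have h4 : v ∈ f.eigenspace μ := hv2
    rwa [Module.End.mem_eigenspace_iff] at h4
  exact hle μ v hv1 (mem_gs_of_log h h' hT h3)

/-- **(R3) the conclusion for subspaces** -/
theorem sub_le_of_close [FiniteDimensional ℝ V] {A A' T : V →L[ℝ] V}
    (h : A' ∘L A = ContinuousLinearMap.id ℝ V) (h' : A ∘L A' = ContinuousLinearMap.id ℝ V)
    (hT : Ad A A' T) (S' S : Submodule ℝ V) (hS' : ∀ s ∈ S', T s ∈ S')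
    (hS : ∀ s ∈ S, A s ∈ S) (hSi : ∀ s ∈ S, A' s ∈ S) (C θ : ℝ) (hθ0 : 0 < θ) (hθ : θ < 1)
    (hC : 0 ≤ C)
    (hcl : ∀ n : ℕ, ∀ s' ∈ S', ∃ s ∈ S, ‖(A ^ n) s' - s‖ ≤ C * θ ^ n * ‖(A ^ n) s'‖) : S' ≤ S := by
  refine sub_le_of_gs h h' hT S' S hS' fun μ v hvS hv => ?_
  -- the quotient
  haveI : IsClosed (S : Set V) := S.closed_of_finiteDimensional
  have hSA : S ≤ S.comap (A : V →ₗ[ℝ] V) := fun s hs => hS s hs
  have hSA' : S ≤ S.comap (A' : V →ₗ[ℝ] V) := fun s hs => hSi s hs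
  let B : (V ⧸ S) →L[ℝ] (V ⧸ S) := LinearMap.toContinuousLinearMap (S.mapQ S (A : V →ₗ[ℝ] V) hSA)
  let B' : (V ⧸ S) →L[ℝ] (V ⧸ S) := LinearMap.toContinuousLinearMap (S.mapQ S (A' : V →ₗ[ℝ] V) hSA')
  have hB : ∀ x : V, B (Submodule.Quotient.mk x) = Submodule.Quotient.mk (A x) := fun x => rfl
  have hB' : ∀ x : V, B' (Submodule.Quotient.mk x) = Submodule.Quotient.mk (A' x) := fun x => rfl
  have hBp : ∀ (n : ℕ) (x : V), (B ^ n) (Submodule.Quotient.mk x) = Submodule.Quotient.mk ((A ^ n) x) := by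
    intro n
    induction n with
    | zero => intro s; simp
    | succ n ih =>
      intro s
      rw [pow_succ', pow_succ']
      show B ((B ^ n) (Submodule.Quotient.mk s)) = Submodule.Quotient.mk (A ((A ^ n) s))
      rw [ih, hB]
  have hBp' : ∀ (n : ℕ) (x : V),
      (B' ^ n) (Submodule.Quotient.mk x) = Submodule.Quotient.mk ((A' ^ n) x) := by
    intro n
    induction n with
    | zero => intro s; simp
    | succ n ih =>
      intro s
      rw [pow_succ', pow_succ']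
      show B' ((B' ^ n) (Submodule.Quotient.mk s)) = Submodule.Quotient.mk (A' ((A' ^ n) s))
      rw [ih, hB']
  have hinv : B' ∘L B = ContinuousLinearMap.id ℝ (V ⧸ S) := by
    ext x
    obtain ⟨x, rfl⟩ := Submodule.Quotient.mk_surjective S x
    show B' (B (Submodule.Quotient.mk x)) = Submodule.Quotient.mk x
    rw [hB, hB']
    have := congrArg (fun f : V →L[ℝ] V => f x) h
    have h1 : A' (A x) = x := by simpa using this
    rw [h1]
  obtain ⟨ε, hε, hεθ⟩ : ∃ ε > 0, 2 * ε + Real.log θ < 0 := by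
    have h1 := Real.log_neg hθ0 hθ
    exact ⟨-Real.log θ / 4, by linarith, by linarith⟩
  rw [mem_gs] at hv
  obtain ⟨⟨C1, hC1⟩, ⟨C2, hC2⟩⟩ := hv ε hε
  have hC10 := slow_nonneg hC1
  have h1 : (Submodule.Quotient.mk v : V ⧸ S) ∈ Slow B (μ + ε + Real.log θ) := by
    refine ⟨C * C1, fun n => ?_⟩
    rw [hBp]
    obtain ⟨s, hs, hs'⟩ := hcl n v hvS
    have h2 : (Submodule.Quotient.mk ((A ^ n) v) : V ⧸ S) =
        Submodule.Quotient.mk ((A ^ n) v - s) := by
      rw [Submodule.Quotient.eq]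
      simpa using hs
    rw [h2]
    refine (Submodule.Quotient.norm_mk_le S ((A ^ n) v - s)).trans (hs'.trans ?_)
    have h3 : C * θ ^ n * ‖(A ^ n) v‖ ≤ C * θ ^ n * (C1 * Real.exp ((μ + ε) * n)) := by
      have := hC1 n
      gcongr
    refine h3.trans (le_of_eq ?_)
    have h4 : Real.exp ((μ + ε + Real.log θ) * n) = Real.exp ((μ + ε) * n) * θ ^ n := by
      rw [add_mul, Real.exp_add, mul_comm (Real.log θ), Real.exp_nat_mul, Real.exp_log hθ0]
    rw [h4]
    ring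
  have h2 : (Submodule.Quotient.mk v : V ⧸ S) ∈ Slow B' (-μ + ε) := by
    refine ⟨C2, fun n => ?_⟩
    rw [hBp']
    exact (Submodule.Quotient.norm_mk_le S ((A' ^ n) v)).trans (hC2 n)
  have h3 : (Submodule.Quotient.mk v : V ⧸ S) = 0 := slow_disj hinv (by linarith) h1 h2
  exact (Submodule.Quotient.mk_eq_zero S).1 h3

/-- **(R3) the conclusion for tensors** -/
theorem vec_eq_of_close [FiniteDimensional ℝ V] {A A' T : V →L[ℝ] V}
    (h : A' ∘L A = ContinuousLinearMap.id ℝ V) (h' : A ∘L A' = ContinuousLinearMap.id ℝ V)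
    (hT : Ad A A' T) (w w' : V) (hw : A w = w) (hw' : T w' = 0)
    (C θ : ℝ) (hθ0 : 0 < θ) (hθ : θ < 1)
    (hcl : ∀ n : ℕ, ‖(A ^ n) w' - w‖ ≤ C * θ ^ n) : w' = w := by
  have hwi : A' w = w := by
    have := congrArg (fun f : V →L[ℝ] V => f w) h
    have h1 : A' (A w) = w := by simpa using this
    rwa [hw] at h1
  have hTw : T w = 0 := log_fix hT hw hwi
  have hx : T (w' - w) = (0 : ℝ) • (w' - w) := by rw [map_sub, hw', hTw, zero_smul, sub_zero]
  have hg := mem_gs_of_log h h' hT hx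
  rw [mem_gs] at hg
  have hp : ∀ n : ℕ, (A ^ n) w = w := by
    intro n
    induction n with
    | zero => simp
    | succ n ih =>
      rw [pow_succ']
      show A ((A ^ n) w) = w
      rw [ih, hw]
  have hlog := Real.log_neg hθ0 hθ
  have h1 : w' - w ∈ Slow A (Real.log θ) := by
    refine ⟨C, fun n => ?_⟩
    rw [map_sub, hp]
    refine (hcl n).trans (le_of_eq ?_)
    rw [mul_comm (Real.log θ), Real.exp_nat_mul, Real.exp_log hθ0]
  have h2 := (hg (-Real.log θ / 2) (by linarith)).2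
  have h3 := slow_disj h (by linarith) h1 h2
  exact sub_eq_zero.1 h3

end Log

section Md

/-- `W` is a module over the Lie algebra `G`; `R` is the period map on `W`, `A` the period map on
`G`, and `act H` is the logarithm of the modulus of `R` -/
structure Md {G W : Type} [NormedAddCommGroup G] [NormedSpace ℝ G] [NormedAddCommGroup W]
    [NormedSpace ℝ W] (R : W ≃L[ℝ] W) (A : G ≃L[ℝ] G) (act : G →L[ℝ] W →L[ℝ] W) (H : G) :
    Prop where
  conj : ∀ X w, R (act X w) = act (A X) (R w)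
  log : Ad (R : W →L[ℝ] W) (R.symm : W →L[ℝ] W) (act H)

variable {G W E F : Type} [NormedAddCommGroup G] [NormedSpace ℝ G] [FiniteDimensional ℝ G]
  [NormedAddCommGroup W] [NormedSpace ℝ W] [FiniteDimensional ℝ W]
  [NormedAddCommGroup E] [NormedSpace ℝ E] [FiniteDimensional ℝ E]
  [NormedAddCommGroup F] [NormedSpace ℝ F] [FiniteDimensional ℝ F]

theorem symm_comp' (R : W ≃L[ℝ] W) :
    (R.symm : W →L[ℝ] W) ∘L (R : W →L[ℝ] W) = ContinuousLinearMap.id ℝ W := by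
  ext x; simp

theorem comp_symm' (R : W ≃L[ℝ] W) :
    (R : W →L[ℝ] W) ∘L (R.symm : W →L[ℝ] W) = ContinuousLinearMap.id ℝ W := by
  ext x; simp

theorem pow_equiv (R : W ≃L[ℝ] W) (n : ℕ) (w : W) :
    (R ^ n : W ≃L[ℝ] W) w = ((R : W →L[ℝ] W) ^ n) w := by
  induction n generalizing w with
  | zero => rfl
  | succ n ih =>
    rw [pow_succ, pow_succ]
    show (R ^ n) (R w) = ((R : W →L[ℝ] W) ^ n) (R w)
    exact ih _

theorem pow_equiv_symm (R : W ≃L[ℝ] W) (n : ℕ) (w : W) :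
    (R ^ n : W ≃L[ℝ] W).symm w = ((R.symm : W →L[ℝ] W) ^ n) w := by
  rw [ContinuousLinearEquiv.symm_apply_eq, pow_equiv]
  exact (pow_inv (comp_symm' R) n w).symm

theorem pow_equiv_symm' (R : W ≃L[ℝ] W) (n : ℕ) (w : W) :
    (R ^ n : W ≃L[ℝ] W).symm w = (⇑R.symm)^[n] w := by
  induction n generalizing w with
  | zero => rfl
  | succ n ih =>
    rw [pow_succ', Function.iterate_succ_apply]
    show (R ^ n : W ≃L[ℝ] W).symm (R.symm w) = _
    exact ih _

theorem inv_mem (R : W ≃L[ℝ] W) (S : Submodule ℝ W) (hS : ∀ s ∈ S, R s ∈ S) :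
    ∀ s ∈ S, R.symm s ∈ S := by
  have h1 : S.map ((R : W →L[ℝ] W) : W →ₗ[ℝ] W) ≤ S := by
    rintro _ ⟨s, hs, rfl⟩
    exact hS s hs
  have h2 : Module.finrank ℝ (S.map ((R : W →L[ℝ] W) : W →ₗ[ℝ] W)) = Module.finrank ℝ S :=
    LinearEquiv.finrank_map_eq R.toLinearEquiv S
  have h3 := Submodule.eq_of_le_of_finrank_eq h1 h2
  intro s hs
  rw [← h3] at hs
  obtain ⟨t, ht, rfl⟩ := hs
  show R.symm (R t) ∈ S
  rw [R.symm_apply_apply]
  exact ht

/-- `H` stabilizes every subspace invariant under the period map -/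
theorem Md.mem_stab {R : W ≃L[ℝ] W} {A : G ≃L[ℝ] G} {act : G →L[ℝ] W →L[ℝ] W} {H : G}
    (m : Md R A act H) (S : Submodule ℝ W) (hS : ∀ s ∈ S, R s ∈ S) : H ∈ stab act S :=
  log_mem (symm_comp' R) (comp_symm' R) m.log S hS (inv_mem R S hS)

/-- `H` kills every tensor invariant under the period map -/
theorem Md.mem_ann {R : W ≃L[ℝ] W} {A : G ≃L[ℝ] G} {act : G →L[ℝ] W →L[ℝ] W} {H : G}
    (m : Md R A act H) {w : W} (hw : R w = w) : H ∈ ann act w := by
  refine log_fix m.log hw ?_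
  show R.symm w = w
  rw [ContinuousLinearEquiv.symm_apply_eq, hw]

omit [FiniteDimensional ℝ G] [FiniteDimensional ℝ W] in
theorem Md.conj_pow {R : W ≃L[ℝ] W} {A : G ≃L[ℝ] G} {act : G →L[ℝ] W →L[ℝ] W} {H : G}
    (m : Md R A act H) (n : ℕ) (X : G) (w : W) :
    (R ^ n : W ≃L[ℝ] W) (act X w) = act ((A ^ n : G ≃L[ℝ] G) X) ((R ^ n : W ≃L[ℝ] W) w) := by
  induction n generalizing X w with
  | zero => rfl
  | succ n ih =>
    rw [pow_succ, pow_succ]
    show (R ^ n) (R (act X w)) = act ((A ^ n) (A X)) ((R ^ n) (R w))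
    rw [m.conj, ih]

omit [FiniteDimensional ℝ G] in
theorem fix_pow {A : G ≃L[ℝ] G} {H : G} (hH : A H = H) (n : ℕ) : (A ^ n : G ≃L[ℝ] G) H = H := by
  induction n with
  | zero => rfl
  | succ n ih =>
    rw [pow_succ]
    show (A ^ n) (A H) = H
    rw [hH, ih]

theorem tendsto_aux {C θ om : ℝ} (hθ0 : 0 < θ) (hom : 1 ≤ om) (hp : om * θ < 1) :
    Tendsto (fun n : ℕ => (C * om ^ n) * (C * θ ^ n)) atTop (𝓝 0) := by
  have h1 : Tendsto (fun n : ℕ => (om * θ) ^ n) atTop (𝓝 0) :=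
    tendsto_pow_atTop_nhds_zero_of_lt_one (by positivity) hp
  have h2 := h1.const_mul (C * C)
  rw [mul_zero] at h2
  refine h2.congr fun n => ?_
  rw [mul_pow]
  ring

/-- **(O1) the logarithm of the modulus stabilizes every subspace whose images converge** -/
theorem Md.stab_of_close {R : W ≃L[ℝ] W} {A : G ≃L[ℝ] G} {act : G →L[ℝ] W →L[ℝ] W} {H : G}
    (m : Md R A act H) (hH : A H = H) (S S' : Submodule ℝ W) (hS : ∀ s ∈ S, R s ∈ S)
    (hdim : Module.finrank ℝ S' = Module.finrank ℝ S)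
    (hst : Module.finrank ℝ (stab act S) ≤ Module.finrank ℝ (stab act S'))
    {C θ om : ℝ} (hC : 1 ≤ C) (hθ0 : 0 < θ) (hom : 1 ≤ om) (hp : om * θ < 1)
    (hcl : ∀ n : ℕ, ∀ s' ∈ S', ∃ s ∈ S, ‖((R : W →L[ℝ] W) ^ n) s' - s‖ ≤
      C * θ ^ n * ‖((R : W →L[ℝ] W) ^ n) s'‖)
    (hA : ∀ (n : ℕ) X, ‖(⇑A.symm)^[n] X‖ ≤ C * om ^ n * ‖X‖) : H ∈ stab act S' := by
  refine rank_lemma act S S' (fun n => R ^ n) (fun n => A ^ n) H (fun n => C * θ ^ n)
    (fun n => C * om ^ n) (fun n X w => m.conj_pow n X w) hdim hst ?_ ?_ ?_ ?_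
    (tendsto_aux hθ0 hom hp) (fun n => fix_pow hH n) (m.mem_stab S hS)
  · intro n s' hs'
    obtain ⟨s, hs, h⟩ := hcl n s' hs'
    refine ⟨s, hs, ?_⟩
    rw [pow_equiv]
    exact h
  · intro n X
    show ‖(A ^ n : G ≃L[ℝ] G).symm X‖ ≤ _
    rw [pow_equiv_symm']
    exact hA n X
  · intro n
    have h1 : 1 ≤ om ^ n := one_le_pow₀ hom
    nlinarith
  · intro n
    positivity

/-- **(O-S) the orbit theorem for subspaces** -/
theorem Md.orb_sub {R : W ≃L[ℝ] W} {A : G ≃L[ℝ] G} {act : G →L[ℝ] W →L[ℝ] W} {H : G}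
    (m : Md R A act H) (hH : A H = H) (S S' : Submodule ℝ W) (hS : ∀ s ∈ S, R s ∈ S)
    (hdim : Module.finrank ℝ S' = Module.finrank ℝ S)
    (hst : Module.finrank ℝ (stab act S) ≤ Module.finrank ℝ (stab act S'))
    {C θ om : ℝ} (hC : 1 ≤ C) (hθ0 : 0 < θ) (hom : 1 ≤ om) (hp : om * θ < 1)
    (hcl : ∀ n : ℕ, ∀ s' ∈ S', ∃ s ∈ S, ‖((R : W →L[ℝ] W) ^ n) s' - s‖ ≤
      C * θ ^ n * ‖((R : W →L[ℝ] W) ^ n) s'‖)
    (hA : ∀ (n : ℕ) X, ‖(⇑A.symm)^[n] X‖ ≤ C * om ^ n * ‖X‖) : S' = S := by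
  have h1 := m.stab_of_close hH S S' hS hdim hst hC hθ0 hom hp hcl hA
  have hθ : θ < 1 := by nlinarith
  exact Submodule.eq_of_le_of_finrank_eq (sub_le_of_close (symm_comp' R) (comp_symm' R) m.log S' S
    h1 hS (inv_mem R S hS) C θ hθ0 hθ (by linarith) hcl) hdim

/-- **(O-T) the orbit theorem for tensors** -/
theorem Md.orb_tens {R : W ≃L[ℝ] W} {A : G ≃L[ℝ] G} {act : G →L[ℝ] W →L[ℝ] W} {H : G}
    (m : Md R A act H) (hH : A H = H) (w w' : W) (hw : R w = w)
    (hst : Module.finrank ℝ (ann act w) ≤ Module.finrank ℝ (ann act w'))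
    {C θ om : ℝ} (hC : 1 ≤ C) (hθ0 : 0 < θ) (hom : 1 ≤ om) (hp : om * θ < 1)
    (hcl : ∀ n : ℕ, ‖((R : W →L[ℝ] W) ^ n) w' - w‖ ≤ C * θ ^ n)
    (hA : ∀ (n : ℕ) X, ‖(⇑A.symm)^[n] X‖ ≤ C * om ^ n * ‖X‖) : w' = w := by
  have h1 : H ∈ ann act w' := by
    refine rank_lemma_tensor act w w' (fun n => R ^ n) (fun n => A ^ n) H (fun n => C * θ ^ n)
      (fun n => C * om ^ n) (fun n X w => m.conj_pow n X w) hst ?_ ?_ ?_
      (tendsto_aux hθ0 hom hp) (fun n => fix_pow hH n) (m.mem_ann hw)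
    · intro n
      rw [pow_equiv]
      exact hcl n
    · intro n X
      show ‖(A ^ n : G ≃L[ℝ] G).symm X‖ ≤ _
      rw [pow_equiv_symm']
      exact hA n X
    · intro n
      have h1 : 1 ≤ om ^ n := one_le_pow₀ hom
      nlinarith
  have hθ : θ < 1 := by nlinarith
  exact vec_eq_of_close (symm_comp' R) (comp_symm' R) m.log w w' hw h1 C θ hθ0 hθ hcl

/-! ### the modules -/

/-- the action on `Hom` -/
noncomputable def homAct (a1 : G →L[ℝ] E →L[ℝ] E) (a2 : G →L[ℝ] F →L[ℝ] F) :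
    G →L[ℝ] (E →L[ℝ] F) →L[ℝ] (E →L[ℝ] F) :=
  (ContinuousLinearMap.compL ℝ E F F) ∘L a2 - ((ContinuousLinearMap.compL ℝ E E F).flip) ∘L a1

omit [FiniteDimensional ℝ G] [FiniteDimensional ℝ E] [FiniteDimensional ℝ F] in
theorem homAct_apply (a1 : G →L[ℝ] E →L[ℝ] E) (a2 : G →L[ℝ] F →L[ℝ] F) (X : G) (T : E →L[ℝ] F) :
    homAct a1 a2 X T = a2 X ∘L T - T ∘L a1 X := rfl

theorem Md.hom {R1 : E ≃L[ℝ] E} {R2 : F ≃L[ℝ] F} {A : G ≃L[ℝ] G} {a1 : G →L[ℝ] E →L[ℝ] E}
    {a2 : G →L[ℝ] F →L[ℝ] F} {H : G} (m1 : Md R1 A a1 H) (m2 : Md R2 A a2 H) :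
    Md (R1.arrowCongr R2) A (homAct a1 a2) H where
  conj := by
    intro X T
    ext x
    rw [homAct_apply, homAct_apply]
    show R2 (a2 X (T (R1.symm x)) - T (a1 X (R1.symm x))) =
      a2 (A X) (R2 (T (R1.symm x))) - R2 (T (R1.symm (a1 (A X) x)))
    rw [map_sub, m2.conj]
    congr 3
    rw [ContinuousLinearEquiv.eq_symm_apply, m1.conj, R1.apply_symm_apply]
  log := log_hom (symm_comp' R1) (comp_symm' R1) m1.log m2.log (fun X => rfl) (fun X => rfl)
    (fun X => homAct_apply a1 a2 H X)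

/-- the action on a product -/
noncomputable def prodAct (a1 : G →L[ℝ] E →L[ℝ] E) (a2 : G →L[ℝ] F →L[ℝ] F) :
    G →L[ℝ] (E × F) →L[ℝ] (E × F) :=
  (ContinuousLinearMap.prodMapL ℝ E E F F) ∘L (a1.prod a2)

theorem prodAct_apply (a1 : G →L[ℝ] E →L[ℝ] E) (a2 : G →L[ℝ] F →L[ℝ] F) (X : G) (p : E × F) :
    prodAct a1 a2 X p = (a1 X p.1, a2 X p.2) := rfl

theorem Md.prod {R1 : E ≃L[ℝ] E} {R2 : F ≃L[ℝ] F} {A : G ≃L[ℝ] G} {a1 : G →L[ℝ] E →L[ℝ] E}
    {a2 : G →L[ℝ] F →L[ℝ] F} {H : G} (m1 : Md R1 A a1 H) (m2 : Md R2 A a2 H) :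
    Md (R1.prodCongr R2) A (prodAct a1 a2) H where
  conj := by
    intro X p
    rw [prodAct_apply, prodAct_apply]
    show (R1 (a1 X p.1), R2 (a2 X p.2)) = (a1 (A X) (R1 p.1), a2 (A X) (R2 p.2))
    rw [m1.conj, m2.conj]
  log := by
    have e1 : ((R1.prodCongr R2 : (E × F) ≃L[ℝ] (E × F)) : (E × F) →L[ℝ] (E × F)) =
        (R1 : E →L[ℝ] E).prodMap (R2 : F →L[ℝ] F) := ContinuousLinearMap.ext fun p => rfl
    have e2 : (((R1.prodCongr R2).symm : (E × F) ≃L[ℝ] (E × F)) : (E × F) →L[ℝ] (E × F)) =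
        (R1.symm : E →L[ℝ] E).prodMap (R2.symm : F →L[ℝ] F) :=
      ContinuousLinearMap.ext fun p => rfl
    have e3 : prodAct a1 a2 H = (a1 H).prodMap (a2 H) :=
      ContinuousLinearMap.ext fun p => prodAct_apply a1 a2 H p
    rw [e1, e2, e3]
    exact log_prod m1.log m2.log

/-- the standard module -/
theorem Md.std {L : E ≃L[ℝ] E} {H : E →L[ℝ] E} (hH : Ad (L : E →L[ℝ] E) (L.symm : E →L[ℝ] E) H) :
    Md L (L.arrowCongr L) (ContinuousLinearMap.id ℝ (E →L[ℝ] E)) H where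
  conj := by
    intro X x
    show L (X x) = L (X (L.symm (L x)))
    rw [L.symm_apply_apply]
  log := hH

/-- the logarithm of the period map is fixed -/
theorem conj_log {L : E ≃L[ℝ] E} {H : E →L[ℝ] E}
    (hH : Ad (L : E →L[ℝ] E) (L.symm : E →L[ℝ] E) H) : L.arrowCongr L H = H := by
  have h1 : ∀ v ∈ ⨆ μ, Gs (L : E →L[ℝ] E) (L.symm : E →L[ℝ] E) μ, H (L v) = L (H v) := by
    intro v hv
    refine Submodule.iSup_induction (motive := fun v => H (L v) = L (H v)) _ hv ?_ ?_ ?_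
    · intro μ y hy
      have h2 : L y ∈ Gs (L : E →L[ℝ] E) (L.symm : E →L[ℝ] E) μ := gs_map (symm_comp' L) hy
      rw [hH μ y hy, hH μ _ h2, map_smul]
    · simp
    · intro a b ha hb
      rw [map_add, map_add, map_add, map_add, ha, hb]
  ext x
  show L (H (L.symm x)) = H x
  have h2 := h1 (L.symm x) (iSup_gs (symm_comp' L) (comp_symm' L) ▸ Submodule.mem_top)
  rw [L.apply_symm_apply] at h2
  exact h2.symm

theorem conj_iter (L : E ≃L[ℝ] E) (n : ℕ) (X : E →L[ℝ] E) :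
    (⇑(L.arrowCongr L).symm)^[n] X = ((L.symm : E →L[ℝ] E) ^ n) ∘L X ∘L ((L : E →L[ℝ] E) ^ n) := by
  induction n generalizing X with
  | zero => ext x; simp
  | succ n ih =>
    rw [Function.iterate_succ_apply]
    have h1 : (L.arrowCongr L).symm X = (L.symm : E →L[ℝ] E) ∘L X ∘L (L : E →L[ℝ] E) := rfl
    rw [h1, ih, pow_succ (L.symm : E →L[ℝ] E), pow_succ' (L : E →L[ℝ] E)]
    rfl

theorem conj_iter_norm (L : E ≃L[ℝ] E) (n : ℕ) (X : E →L[ℝ] E) :
    ‖(⇑(L.arrowCongr L).symm)^[n] X‖ ≤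
      ‖(L.symm : E →L[ℝ] E) ^ n‖ * ‖(L : E →L[ℝ] E) ^ n‖ * ‖X‖ := by
  rw [conj_iter]
  refine (ContinuousLinearMap.opNorm_comp_le _ _).trans ?_
  have h2 := ContinuousLinearMap.opNorm_comp_le X ((L : E →L[ℝ] E) ^ n)
  calc _ ≤ ‖(L.symm : E →L[ℝ] E) ^ n‖ * (‖X‖ * ‖(L : E →L[ℝ] E) ^ n‖) := by gcongr
    _ = _ := by ring

end Md

end Vale.Agent.P207.H738
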