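import Mathlib

/-!
# P207, quarter pinching, row (R1): the RANK LEMMA

`G` = the Lie algebra (`gl(E)`), `act : G → End W` its (linear) action on a tensor module `W`,
`R n : W ≃ W`, `Ad n : G ≃ G` the action of the `n`-th power of the period map,
`R n (act X w) = act (Ad n X) (R n w)`.

If `R n S'` converges to `S` with an error `del n`, if the stabilizer of `S'` is at least as large as
the stabilizer of `S`, and if `|(Ad n)⁻¹| ≤ om n` with `om n * del n → 0`, then every `D` which is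
fixed by all `Ad n` and stabilizes `S` stabilizes `S'`.
-/

set_option linter.all false

open Set Filter Topology

namespace Vale.Agent.P207.H738

section Abs

variable {G V : Type*} [NormedAddCommGroup G] [NormedSpace ℝ G] [FiniteDimensional ℝ G]
  [NormedAddCommGroup V] [NormedSpace ℝ V]

/-- (R0) if the kernels are at least as large as the kernel of the limit, then a vector which is
almost killed can be corrected by a small vector -/
theorem corr (A : G →L[ℝ] V) (An : ℕ → G →L[ℝ] V) (D : G) (del : ℕ → ℝ)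
    (hA : Tendsto An atTop (𝓝 A))
    (hr : ∀ n, Module.finrank ℝ (LinearMap.ker (A : G →ₗ[ℝ] V)) ≤
      Module.finrank ℝ (LinearMap.ker (An n : G →ₗ[ℝ] V)))
    (hD : ∀ n, ‖An n D‖ ≤ del n) :
    ∃ C, 0 ≤ C ∧ ∀ᶠ n in atTop, ∃ X : G, ‖X‖ ≤ C * del n ∧ An n X = An n D := by
  obtain ⟨c, hc⟩ := Submodule.exists_isCompl (LinearMap.ker (A : G →ₗ[ℝ] V))
  have hinj : Function.Injective ((A : G →ₗ[ℝ] V) ∘ₗ c.subtype) := by
    rw [← LinearMap.ker_eq_bot, LinearMap.ker_eq_bot']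
    intro x hx
    have h1 : (x : G) ∈ LinearMap.ker (A : G →ₗ[ℝ] V) := hx
    have h2 : (x : G) ∈ (LinearMap.ker (A : G →ₗ[ℝ] V)) ⊓ c := ⟨h1, x.2⟩
    rw [hc.inf_eq_bot] at h2
    exact Subtype.ext ((Submodule.mem_bot ℝ).1 h2)
  obtain ⟨K, hK, hanti⟩ := (LinearMap.injective_iff_antilipschitz _).1 hinj
  have hlow : ∀ x ∈ c, ‖x‖ ≤ K * ‖A x‖ := by
    intro x hx
    have h := hanti.le_mul_dist ⟨x, hx⟩ 0
    rw [dist_zero_right, map_zero, dist_zero_right] at h
    exact h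
  have hK0 : (0 : ℝ) < K := hK
  have hev : ∀ᶠ n in atTop, ‖An n - A‖ < 1 / (2 * K) := by
    have h1 : Tendsto (fun n => ‖An n - A‖) atTop (𝓝 0) := by
      have h2 := (hA.sub_const A).norm
      simpa using h2
    exact h1.eventually_lt_const (by positivity)
  refine ⟨2 * K, by positivity, ?_⟩
  filter_upwards [hev] with n hn
  have hlow' : ∀ x ∈ c, ‖x‖ ≤ 2 * K * ‖An n x‖ := by
    intro x hx
    have h1 := hlow x hx
    have h2 : ‖A x‖ ≤ ‖An n x‖ + ‖An n - A‖ * ‖x‖ := by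
      have h3 : A x = An n x - (An n - A) x := by simp
      rw [h3]
      exact (norm_sub_le _ _).trans (add_le_add le_rfl ((An n - A).le_opNorm x))
    have h4 : ‖An n - A‖ * ‖x‖ ≤ 1 / (2 * K) * ‖x‖ := by gcongr
    have h5 : (K : ℝ) * ‖A x‖ ≤ K * (‖An n x‖ + 1 / (2 * K) * ‖x‖) := by gcongr; linarith
    have h6 : (K : ℝ) * (‖An n x‖ + 1 / (2 * K) * ‖x‖) = K * ‖An n x‖ + ‖x‖ / 2 := by
      field_simp
    linarith
  have hdis : Disjoint c (LinearMap.ker (An n : G →ₗ[ℝ] V)) := by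
    rw [Submodule.disjoint_def]
    intro x hx hx'
    have h1 : An n x = 0 := hx'
    have h2 := hlow' x hx
    rw [h1] at h2
    simpa using h2
  have hsup : c ⊔ LinearMap.ker (An n : G →ₗ[ℝ] V) = ⊤ := by
    refine Submodule.eq_top_of_disjoint _ _ ?_ hdis
    have h1 := Submodule.finrank_add_eq_of_isCompl hc
    have h2 := hr n
    omega
  obtain ⟨X, hX, k, hk, hXk⟩ := Submodule.mem_sup.1 (hsup ▸ Submodule.mem_top : D ∈ _)
  have hk' : An n k = 0 := hk
  have hXD : An n X = An n D := by rw [← hXk, map_add, hk', add_zero]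
  refine ⟨X, ?_, hXD⟩
  calc ‖X‖ ≤ 2 * K * ‖An n X‖ := hlow' X hX
    _ = 2 * K * ‖An n D‖ := by rw [hXD]
    _ ≤ 2 * K * del n := by gcongr; exact hD n

/-- (R1), abstract form -/
theorem mem_of_conj (A : G →L[ℝ] V) (An : ℕ → G →L[ℝ] V) (D : G) (Ad : ℕ → G ≃L[ℝ] G)
    (H : Submodule ℝ G) (del om : ℕ → ℝ) (hA : Tendsto An atTop (𝓝 A))
    (hker : ∀ n X, An n (Ad n X) = 0 ↔ X ∈ H) (hDn : ∀ n, Ad n D = D)
    (hr : Module.finrank ℝ (LinearMap.ker (A : G →ₗ[ℝ] V)) ≤ Module.finrank ℝ H)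
    (hD : ∀ n, ‖An n D‖ ≤ del n) (hom : ∀ n X, ‖(Ad n).symm X‖ ≤ om n * ‖X‖)
    (hom0 : ∀ n, 0 ≤ om n)
    (h0 : Tendsto (fun n => om n * del n) atTop (𝓝 0)) : D ∈ H := by
  have hk : ∀ n, LinearMap.ker (An n : G →ₗ[ℝ] V) = H.map ((Ad n : G →L[ℝ] G) : G →ₗ[ℝ] G) := by
    intro n
    ext Y
    constructor
    · intro hY
      refine ⟨(Ad n).symm Y, (hker n _).1 ?_, ?_⟩
      · rw [(Ad n).apply_symm_apply]
        exact hY
      · exact (Ad n).apply_symm_apply Y
    · rintro ⟨X, hX, rfl⟩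
      exact (hker n X).2 hX
  have hr' : ∀ n, Module.finrank ℝ (LinearMap.ker (A : G →ₗ[ℝ] V)) ≤
      Module.finrank ℝ (LinearMap.ker (An n : G →ₗ[ℝ] V)) := by
    intro n
    rw [hk n]
    refine hr.trans (le_of_eq ?_)
    exact (LinearEquiv.finrank_map_eq (Ad n).toLinearEquiv H).symm
  obtain ⟨C, hC, hev⟩ := corr A An D del hA hr' hD
  obtain ⟨n0, hn0⟩ := eventually_atTop.1 hev
  have hex : ∀ n ≥ n0, ∃ Z ∈ H, ‖Z - D‖ ≤ C * (om n * del n) := by
    intro n hn
    obtain ⟨X, hX, hXD⟩ := hn0 n hn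
    refine ⟨D - (Ad n).symm X, ?_, ?_⟩
    · rw [← hker n, map_sub, (Ad n).apply_symm_apply, hDn, map_sub, hXD, sub_self]
    · have h1 : D - (Ad n).symm X - D = - (Ad n).symm X := by abel
      rw [h1, norm_neg]
      calc ‖(Ad n).symm X‖ ≤ om n * ‖X‖ := hom n X
        _ ≤ om n * (C * del n) := by gcongr; exact hom0 n
        _ = C * (om n * del n) := by ring
  have hcl : IsClosed (H : Set G) := H.closed_of_finiteDimensional
  rw [← SetLike.mem_coe, ← hcl.closure_eq, Metric.mem_closure_iff]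
  intro ε hε
  have h1 : Tendsto (fun n => C * (om n * del n)) atTop (𝓝 0) := by
    simpa using h0.const_mul C
  obtain ⟨n, hn, hn'⟩ := ((h1.eventually_lt_const hε).and (eventually_ge_atTop n0)).exists
  obtain ⟨Z, hZ, hZ'⟩ := hex n hn'
  refine ⟨Z, hZ, ?_⟩
  rw [dist_comm, dist_eq_norm]
  exact lt_of_le_of_lt hZ' hn

end Abs

section Sub

variable {G W : Type*} [NormedAddCommGroup G] [NormedSpace ℝ G] [NormedAddCommGroup W]
  [NormedSpace ℝ W]

/-- the stabilizer of a subspace -/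
def stab (act : G →L[ℝ] W →L[ℝ] W) (S : Submodule ℝ W) : Submodule ℝ G where
  carrier := {X | ∀ s ∈ S, act X s ∈ S}
  add_mem' := by
    intro X Y hX hY s hs
    rw [map_add, ContinuousLinearMap.add_apply]
    exact S.add_mem (hX s hs) (hY s hs)
  zero_mem' := by
    intro s hs
    simp
  smul_mem' := by
    intro c X hX s hs
    rw [map_smul, ContinuousLinearMap.smul_apply]
    exact S.smul_mem c (hX s hs)

theorem mem_stab {act : G →L[ℝ] W →L[ℝ] W} {S : Submodule ℝ W} {X : G} :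
    X ∈ stab act S ↔ ∀ s ∈ S, act X s ∈ S := Iff.rfl

/-- the annihilator of a tensor -/
def ann (act : G →L[ℝ] W →L[ℝ] W) (w : W) : Submodule ℝ G where
  carrier := {X | act X w = 0}
  add_mem' := by
    intro X Y hX hY
    show act (X + Y) w = 0
    rw [map_add, ContinuousLinearMap.add_apply, show act X w = 0 from hX,
      show act Y w = 0 from hY, add_zero]
  zero_mem' := by
    show act 0 w = 0
    simp
  smul_mem' := by
    intro c X hX
    show act (c • X) w = 0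
    rw [map_smul, ContinuousLinearMap.smul_apply, show act X w = 0 from hX, smul_zero]

theorem mem_ann {act : G →L[ℝ] W →L[ℝ] W} {w : W} {X : G} : X ∈ ann act w ↔ act X w = 0 := Iff.rfl

/-- a subspace of the same dimension near `S` is a graph over `S` -/
theorem exists_graph [FiniteDimensional ℝ W] (S : Submodule ℝ W) (Q : W →L[ℝ] S)
    (hQ : ∀ s : S, Q s = s) : ∀ (S1 : Submodule ℝ W) (d : ℝ),
    Module.finrank ℝ S1 = Module.finrank ℝ S → (1 + ‖Q‖) * d ≤ 1 / 2 → 0 ≤ d →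
    (∀ s1 ∈ S1, ∃ s ∈ S, ‖s1 - s‖ ≤ d * ‖s1‖) →
    ∃ j : S →L[ℝ] W, (∀ s, j s ∈ S1) ∧ (∀ s1 ∈ S1, j (Q s1) = s1) ∧
      ‖j - S.subtypeL‖ ≤ 2 * (1 + ‖Q‖) * d := by
  intro S1 d hdim hd hd0 hcl
  have hkey : ∀ s1 ∈ S1, ‖s1 - (Q s1 : W)‖ ≤ (1 + ‖Q‖) * d * ‖s1‖ := by
    intro s1 hs1
    obtain ⟨s, hs, h⟩ := hcl s1 hs1
    have h1 : s1 - (Q s1 : W) = (s1 - s) - (Q (s1 - s) : W) := by
      have h2 : (Q s : W) = s := congrArg Subtype.val (hQ ⟨s, hs⟩)
      rw [map_sub, Submodule.coe_sub, h2]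
      abel
    rw [h1]
    calc ‖(s1 - s) - (Q (s1 - s) : W)‖ ≤ ‖s1 - s‖ + ‖(Q (s1 - s) : W)‖ := norm_sub_le _ _
      _ ≤ ‖s1 - s‖ + ‖Q‖ * ‖s1 - s‖ := by
        gcongr
        exact Q.le_opNorm _
      _ = (1 + ‖Q‖) * ‖s1 - s‖ := by ring
      _ ≤ (1 + ‖Q‖) * (d * ‖s1‖) := by gcongr
      _ = (1 + ‖Q‖) * d * ‖s1‖ := by ring
  have hinj : Function.Injective ((Q : W →ₗ[ℝ] S) ∘ₗ S1.subtype) := by
    rw [← LinearMap.ker_eq_bot, LinearMap.ker_eq_bot']
    intro x hx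
    have h1 : Q (x : W) = 0 := hx
    have h2 := hkey x x.2
    rw [h1] at h2
    simp only [ZeroMemClass.coe_zero, sub_zero] at h2
    have h3 : (1 + ‖Q‖) * d * ‖(x : W)‖ ≤ 1 / 2 * ‖(x : W)‖ := by gcongr
    have h4 : ‖(x : W)‖ = 0 := le_antisymm (by linarith) (norm_nonneg _)
    exact Subtype.ext (norm_eq_zero.1 h4)
  let e : S1 ≃ₗ[ℝ] S := LinearEquiv.ofInjectiveOfFinrankEq ((Q : W →ₗ[ℝ] S) ∘ₗ S1.subtype) hinj hdim
  have he : ∀ x : S1, e x = Q (x : W) := fun x => rfl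
  let jl : S →ₗ[ℝ] W := S1.subtype ∘ₗ (e.symm : S →ₗ[ℝ] S1)
  let j : S →L[ℝ] W := LinearMap.toContinuousLinearMap jl
  have hj : ∀ s, j s = (e.symm s : W) := fun s => rfl
  have hjQ : ∀ s, Q (j s) = s := by
    intro s
    rw [hj, ← he, e.apply_symm_apply]
  refine ⟨j, fun s => ?_, fun s1 hs1 => ?_, ?_⟩
  · rw [hj]
    exact (e.symm s).2
  · rw [hj, ← he ⟨s1, hs1⟩, e.symm_apply_apply]
  · refine ContinuousLinearMap.opNorm_le_bound _ (by positivity) fun s => ?_
    have hm : j s ∈ S1 := by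
      rw [hj]
      exact (e.symm s).2
    have h1 := hkey (j s) hm
    rw [hjQ] at h1
    have h2 : ‖j s‖ ≤ 2 * ‖s‖ := by
      have h3 : ‖j s‖ ≤ ‖j s - (s : W)‖ + ‖(s : W)‖ := by
        have := norm_add_le (j s - (s : W)) (s : W)
        rwa [sub_add_cancel] at this
      have h4 : (1 + ‖Q‖) * d * ‖j s‖ ≤ 1 / 2 * ‖j s‖ := by gcongr
      have h5 : ‖(s : W)‖ = ‖s‖ := rfl
      linarith
    calc ‖(j - S.subtypeL) s‖ = ‖j s - (s : W)‖ := rfl
      _ ≤ (1 + ‖Q‖) * d * ‖j s‖ := h1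
      _ ≤ (1 + ‖Q‖) * d * (2 * ‖s‖) := by gcongr
      _ = 2 * (1 + ‖Q‖) * d * ‖s‖ := by ring

/-- **(R1) THE RANK LEMMA for subspaces** -/
theorem rank_lemma [FiniteDimensional ℝ G] [FiniteDimensional ℝ W] (act : G →L[ℝ] W →L[ℝ] W)
    (S S' : Submodule ℝ W) (R : ℕ → W ≃L[ℝ] W) (Ad : ℕ → G ≃L[ℝ] G) (D : G) (del om : ℕ → ℝ)
    (hRA : ∀ n X w, R n (act X w) = act (Ad n X) (R n w))
    (hdim : Module.finrank ℝ S' = Module.finrank ℝ S)
    (hst : Module.finrank ℝ (stab act S) ≤ Module.finrank ℝ (stab act S'))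
    (hcl : ∀ n, ∀ s' ∈ S', ∃ s ∈ S, ‖R n s' - s‖ ≤ del n * ‖R n s'‖)
    (hom : ∀ n X, ‖(Ad n).symm X‖ ≤ om n * ‖X‖)
    (hom1 : ∀ n, 1 ≤ om n) (hdel : ∀ n, 0 ≤ del n)
    (h0 : Tendsto (fun n => om n * del n) atTop (𝓝 0))
    (hDn : ∀ n, Ad n D = D) (hDS : D ∈ stab act S) : D ∈ stab act S' := by
  obtain ⟨Q, hQ⟩ := (Submodule.ClosedComplemented.of_finiteDimensional S :
    S.ClosedComplemented)
  have hdel0 : Tendsto del atTop (𝓝 0) := by
    refine squeeze_zero hdel (fun n => ?_) h0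
    exact le_mul_of_one_le_left (hdel n) (hom1 n)
  have hev : ∀ᶠ n in atTop, (1 + ‖Q‖) * del n < 1 / 2 := by
    have h1 : Tendsto (fun n => (1 + ‖Q‖) * del n) atTop (𝓝 0) := by
      simpa using hdel0.const_mul (1 + ‖Q‖)
    exact h1.eventually_lt_const (by norm_num)
  obtain ⟨n0, hn0⟩ := eventually_atTop.1 hev
  -- the graphs
  have hgr : ∀ m : ℕ, ∃ j : S →L[ℝ] W,
      (∀ s, j s ∈ S'.map ((R (m + n0) : W →L[ℝ] W) : W →ₗ[ℝ] W)) ∧
      (∀ s1 ∈ S'.map ((R (m + n0) : W →L[ℝ] W) : W →ₗ[ℝ] W), j (Q s1) = s1) ∧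
      ‖j - S.subtypeL‖ ≤ 2 * (1 + ‖Q‖) * del (m + n0) := by
    intro m
    refine exists_graph S Q hQ _ (del (m + n0)) ?_ (hn0 _ (by omega)).le (hdel _) ?_
    · rw [← hdim]
      exact LinearEquiv.finrank_map_eq (R (m + n0)).toLinearEquiv S'
    · rintro _ ⟨s', hs', rfl⟩
      exact hcl (m + n0) s' hs'
  choose j hj1 hj2 hj3 using hgr
  have hjt : Tendsto j atTop (𝓝 S.subtypeL) := by
    refine (tendsto_iff_norm_sub_tendsto_zero (E := S →L[ℝ] W)).2 ?_
    refine squeeze_zero (fun m => norm_nonneg (j m - S.subtypeL)) hj3 ?_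
    have h1 := ((tendsto_add_atTop_iff_nat n0).2 hdel0).const_mul (2 * (1 + ‖Q‖))
    simpa using h1
  -- the maps
  let F : (S →L[ℝ] W) → (G →L[ℝ] (S →L[ℝ] W)) := fun i =>
    (ContinuousLinearMap.compL ℝ S W W (ContinuousLinearMap.id ℝ W - i ∘L Q)) ∘L
      ((ContinuousLinearMap.compL ℝ S W W).flip i) ∘L act
  have hF : ∀ i X s, F i X s = act X (i s) - i (Q (act X (i s))) := by
    intro i X s
    rfl
  have hFc : Continuous F := by
    have h1 : Continuous fun i : S →L[ℝ] W => ContinuousLinearMap.id ℝ W - i ∘L Q :=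
      continuous_const.sub (continuous_id.clm_comp continuous_const)
    have h2 : Continuous fun i : S →L[ℝ] W =>
        ContinuousLinearMap.compL ℝ S W W (ContinuousLinearMap.id ℝ W - i ∘L Q) :=
      (ContinuousLinearMap.compL ℝ S W W).continuous.comp h1
    have h3 : Continuous fun i : S →L[ℝ] W => (ContinuousLinearMap.compL ℝ S W W).flip i :=
      ((ContinuousLinearMap.compL ℝ S W W).flip).continuous
    exact h2.clm_comp (h3.clm_comp continuous_const)
  have hA : Tendsto (fun m => F (j m)) atTop (𝓝 (F S.subtypeL)) :=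
    (hFc.tendsto _).comp hjt
  have hstabS : LinearMap.ker ((F S.subtypeL : G →L[ℝ] (S →L[ℝ] W)) : G →ₗ[ℝ] (S →L[ℝ] W)) =
      stab act S := by
    ext X
    rw [mem_stab]
    constructor
    · intro h s hs
      have h1 : F S.subtypeL X ⟨s, hs⟩ = 0 := by
        have h2 : F S.subtypeL X = 0 := h
        rw [h2]; rfl
      rw [hF] at h1
      have h3 : act X s = (Q (act X s) : W) := sub_eq_zero.1 h1
      rw [h3]
      exact (Q (act X s)).2
    · intro h
      show F S.subtypeL X = 0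
      ext s
      rw [hF]
      have h1 : act X (s : W) ∈ S := h s s.2
      have h2 : (Q (act X (s : W)) : W) = act X (s : W) := congrArg Subtype.val (hQ ⟨_, h1⟩)
      show act X (s : W) - (Q (act X (s : W)) : W) = 0
      rw [h2, sub_self]
  -- the constant
  let K : ℝ := ‖act D‖
  have hbd : ∀ m, ‖j m‖ ≤ ‖S.subtypeL‖ + 2 := by
    intro m
    have h1 : j m = (j m - S.subtypeL) + S.subtypeL := by abel
    rw [h1]
    have h5 := norm_add_le (j m - S.subtypeL) S.subtypeL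
    refine h5.trans ?_
    have h2 := hj3 m
    have h3 := (hn0 (m + n0) (by omega)).le
    have h4 : 2 * (1 + ‖Q‖) * del (m + n0) ≤ 2 := by linarith
    linarith
  have hsmall : ∀ m, ‖F (j m) D‖ ≤
      ((2 * (1 + ‖Q‖)) * K * ‖S.subtypeL‖ + (1 + (‖S.subtypeL‖ + 2) * ‖Q‖) * K * (2 * (1 + ‖Q‖))) *
        del (m + n0) := by
    intro m
    refine ContinuousLinearMap.opNorm_le_bound _ ?_ fun s => ?_
    · have := hdel (m + n0)
      positivity
    · have hd := hdel (m + n0)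
      have hmem : act D (s : W) ∈ S := hDS s s.2
      set i := j m with hi
      have e1 : F i D s = -((i - S.subtypeL) ⟨act D (s : W), hmem⟩) +
          (act D ((i - S.subtypeL) s) - i (Q (act D ((i - S.subtypeL) s)))) := by
        rw [hF]
        have h2 : Q (act D (s : W)) = ⟨act D (s : W), hmem⟩ := hQ ⟨_, hmem⟩
        have h3 : i s = (i - S.subtypeL) s + (s : W) := by
          show i s = (i s - (s : W)) + (s : W)
          abel
        have h4 : (i - S.subtypeL) ⟨act D (s : W), hmem⟩ =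
            i ⟨act D (s : W), hmem⟩ - act D (s : W) := rfl
        rw [h3, map_add, map_add, map_add, h2, h4]
        abel
      have n1 : ‖(i - S.subtypeL) ⟨act D (s : W), hmem⟩‖ ≤
          2 * (1 + ‖Q‖) * del (m + n0) * (K * (‖S.subtypeL‖ * ‖s‖)) := by
        refine ((i - S.subtypeL).le_opNorm _).trans ?_
        have h5 : ‖(⟨act D (s : W), hmem⟩ : S)‖ ≤ K * (‖S.subtypeL‖ * ‖s‖) := by
          show ‖act D (s : W)‖ ≤ _
          refine ((act D).le_opNorm _).trans ?_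
          have h6 : ‖(s : W)‖ ≤ ‖S.subtypeL‖ * ‖s‖ := S.subtypeL.le_opNorm s
          gcongr
        have h7 := hj3 m
        gcongr
      have n2 : ‖act D ((i - S.subtypeL) s)‖ ≤ K * (2 * (1 + ‖Q‖) * del (m + n0) * ‖s‖) := by
        refine ((act D).le_opNorm _).trans ?_
        have h8 : ‖(i - S.subtypeL) s‖ ≤ 2 * (1 + ‖Q‖) * del (m + n0) * ‖s‖ := by
          refine ((i - S.subtypeL).le_opNorm _).trans ?_
          have h7 := hj3 m
          gcongr
        gcongr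
      have n3 : ‖i (Q (act D ((i - S.subtypeL) s)))‖ ≤
          (‖S.subtypeL‖ + 2) * (‖Q‖ * (K * (2 * (1 + ‖Q‖) * del (m + n0) * ‖s‖))) := by
        refine (i.le_opNorm _).trans ?_
        have h9 : ‖Q (act D ((i - S.subtypeL) s))‖ ≤
            ‖Q‖ * (K * (2 * (1 + ‖Q‖) * del (m + n0) * ‖s‖)) := by
          refine (Q.le_opNorm _).trans ?_
          gcongr
        have h10 := hbd m
        gcongr
      rw [e1]
      refine (norm_add_le _ _).trans ?_
      rw [norm_neg]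
      have n4 := norm_sub_le (act D ((i - S.subtypeL) s)) (i (Q (act D ((i - S.subtypeL) s))))
      calc _ ≤ 2 * (1 + ‖Q‖) * del (m + n0) * (K * (‖S.subtypeL‖ * ‖s‖)) +
            (K * (2 * (1 + ‖Q‖) * del (m + n0) * ‖s‖) +
              (‖S.subtypeL‖ + 2) * (‖Q‖ * (K * (2 * (1 + ‖Q‖) * del (m + n0) * ‖s‖)))) := by
            linarith
        _ = _ := by ring
  refine mem_of_conj (V := S →L[ℝ] W) (F S.subtypeL) (fun m => F (j m)) D
    (fun m => Ad (m + n0)) (stab act S')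
    (fun m => ((2 * (1 + ‖Q‖)) * K * ‖S.subtypeL‖ +
      (1 + (‖S.subtypeL‖ + 2) * ‖Q‖) * K * (2 * (1 + ‖Q‖))) * del (m + n0))
    (fun m => om (m + n0)) hA ?_ (fun m => hDn _) ?_ (fun m => hsmall m) (fun m X => hom _ X)
    (fun m => zero_le_one.trans (hom1 _)) ?_
  · intro m X
    have hR := hRA (m + n0) X
    constructor
    · intro h s' hs'
      have hmem : R (m + n0) s' ∈ S'.map ((R (m + n0) : W →L[ℝ] W) : W →ₗ[ℝ] W) := ⟨s', hs', rfl⟩
      have h1 : F (j m) (Ad (m + n0) X) (Q (R (m + n0) s')) = 0 := by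
        rw [h]; rfl
      rw [hF, hj2 m _ hmem] at h1
      have h2 : act (Ad (m + n0) X) (R (m + n0) s') ∈
          S'.map ((R (m + n0) : W →L[ℝ] W) : W →ₗ[ℝ] W) := by
        rw [sub_eq_zero.1 h1]
        exact hj1 m _
      rw [← hR] at h2
      obtain ⟨t, ht, ht'⟩ := h2
      have h3 : R (m + n0) t = R (m + n0) (act X s') := ht'
      rw [← (R (m + n0)).injective h3]
      exact ht
    · intro h
      ext s
      rw [hF]
      obtain ⟨t, ht, ht'⟩ := hj1 m s
      have h3 : R (m + n0) t = j m s := ht'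
      rw [← h3, ← hR]
      have hmem : R (m + n0) (act X t) ∈ S'.map ((R (m + n0) : W →L[ℝ] W) : W →ₗ[ℝ] W) :=
        ⟨_, h t ht, rfl⟩
      rw [hj2 m _ hmem, sub_self]
      rfl
  · rw [hstabS]
    exact hst
  · have h1 := ((tendsto_add_atTop_iff_nat n0).2 h0).const_mul
      ((2 * (1 + ‖Q‖)) * K * ‖S.subtypeL‖ + (1 + (‖S.subtypeL‖ + 2) * ‖Q‖) * K * (2 * (1 + ‖Q‖)))
    rw [mul_zero] at h1
    refine h1.congr fun m => ?_
    ring

/-- **(R1) THE RANK LEMMA for tensors** -/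
theorem rank_lemma_tensor [FiniteDimensional ℝ G] (act : G →L[ℝ] W →L[ℝ] W)
    (w w' : W) (R : ℕ → W ≃L[ℝ] W) (Ad : ℕ → G ≃L[ℝ] G) (D : G) (del om : ℕ → ℝ)
    (hRA : ∀ n X w, R n (act X w) = act (Ad n X) (R n w))
    (hst : Module.finrank ℝ (ann act w) ≤ Module.finrank ℝ (ann act w'))
    (hcl : ∀ n, ‖R n w' - w‖ ≤ del n)
    (hom : ∀ n X, ‖(Ad n).symm X‖ ≤ om n * ‖X‖)
    (hom1 : ∀ n, 1 ≤ om n)
    (h0 : Tendsto (fun n => om n * del n) atTop (𝓝 0))
    (hDn : ∀ n, Ad n D = D) (hDw : D ∈ ann act w) : D ∈ ann act w' := by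
  have hdel : ∀ n, 0 ≤ del n := fun n => (norm_nonneg _).trans (hcl n)
  have hdel0 : Tendsto del atTop (𝓝 0) := by
    refine squeeze_zero hdel (fun n => ?_) h0
    exact le_mul_of_one_le_left (hdel n) (hom1 n)
  have hRt : Tendsto (fun n => R n w') atTop (𝓝 w) := by
    rw [tendsto_iff_norm_sub_tendsto_zero]
    exact squeeze_zero (fun _ => norm_nonneg _) hcl hdel0
  have hA : Tendsto (fun n => act.flip (R n w')) atTop (𝓝 (act.flip w)) :=
    (act.flip.continuous.tendsto w).comp hRt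
  refine mem_of_conj (act.flip w) (fun n => act.flip (R n w')) D Ad (ann act w')
    (fun n => ‖act D‖ * del n) om hA ?_ hDn ?_ ?_ hom (fun n => zero_le_one.trans (hom1 n)) ?_
  · intro n X
    show act (Ad n X) (R n w') = 0 ↔ act X w' = 0
    rw [← hRA]
    exact (R n).map_eq_zero_iff
  · refine le_trans (le_of_eq ?_) hst
    rfl
  · intro n
    show ‖act D (R n w')‖ ≤ _
    have h1 : act D (R n w') = act D (R n w' - w) := by
      rw [map_sub, show act D w = 0 from hDw, sub_zero]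
    rw [h1]
    refine ((act D).le_opNorm _).trans ?_
    gcongr
    exact hcl n
  · have h1 := h0.const_mul ‖act D‖
    rw [mul_zero] at h1
    refine h1.congr fun n => ?_
    ring

end Sub

end Vale.Agent.P207.H738
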